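import Vale.Agent.Lib.P329.helper10.Prim

/-!
# P329 (helper10): aligned blocks

A word is cut into consecutive blocks of length `q` and an incomplete last block.  For a
primitive word `β` of length `q` the number of blocks equal to `β`, modulo any `M`, is a good
function of the word; so are the number of blocks and the incomplete last block.
-/

namespace Vale.Agent.Lib.P329.helper10

open Vale.Agent.Lib.P329 Vale.Agent.Lib.P329.helper24

variable {α : Type}

/-- The aligned full blocks of length `q` of a word. -/
def chunks (q : ℕ) (w : List α) : List (List α) :=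
  if 0 < q ∧ q ≤ w.length then w.take q :: chunks q (w.drop q) else []
termination_by w.length
decreasing_by
  simp only [List.length_drop]
  omega

/-- The incomplete last block. -/
def tl (q : ℕ) (w : List α) : List α := w.drop (q * (w.length / q))

theorem chunks_append {q : ℕ} (hq : 0 < q) (b w : List α) (hb : b.length = q) :
    chunks q (b ++ w) = b :: chunks q w := by
  rw [chunks]
  have h : 0 < q ∧ q ≤ (b ++ w).length := ⟨hq, by rw [List.length_append]; omega⟩
  rw [if_pos h, List.take_left' hb, List.drop_left' hb]

theorem chunks_short {q : ℕ} (w : List α) (h : w.length < q) : chunks q w = [] := by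
  rw [chunks]
  rw [if_neg]
  omega

theorem tl_append {q : ℕ} (hq : 0 < q) (b w : List α) (hb : b.length = q) :
    tl q (b ++ w) = tl q w := by
  unfold tl
  rw [List.length_append, hb, Nat.add_div_left _ hq, Nat.mul_succ, Nat.add_comm (q * _) q,
    ← List.drop_drop, List.drop_left' hb]

theorem tl_short {q : ℕ} (w : List α) (h : w.length < q) : tl q w = w := by
  unfold tl
  rw [Nat.div_eq_of_lt h]
  simp

theorem tl_length {q : ℕ} (hq : 0 < q) (w : List α) : (tl q w).length < q := by
  unfold tl
  rw [List.length_drop, ← Nat.mod_eq_sub_mul_div]
  exact Nat.mod_lt _ hq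

theorem block_induction {q : ℕ} (hq : 0 < q) (P : List α → Prop)
    (h0 : ∀ w, w.length < q → P w) (h1 : ∀ b w, b.length = q → P w → P (b ++ w)) :
    ∀ w, P w := by
  have key : ∀ (n : ℕ) (w : List α), w.length ≤ n → P w := by
    intro n
    induction n with
    | zero =>
      intro w hw
      exact h0 w (by omega)
    | succ n ih =>
      intro w hw
      by_cases h : w.length < q
      · exact h0 w h
      · rw [← List.take_append_drop q w]
        apply h1
        · rw [List.length_take]
          omega
        · apply ih
          rw [List.length_drop]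
          omega
  intro w
  exact key w.length w le_rfl

section counts

variable [DecidableEq α]

/-- The number of aligned blocks of `w` equal to `β`. -/
def cb (β w : List α) : ℕ := (chunks β.length w).count β

/-- The number of aligned full blocks of `w` different from `β`. -/
def nnb (β w : List α) : ℕ := (chunks β.length w).countP (fun b => decide (b ≠ β))

theorem cb_add_nnb (β w : List α) : cb β w + nnb β w = (chunks β.length w).length := by
  unfold cb nnb
  induction chunks β.length w with
  | nil => rfl
  | cons b l ih =>
    by_cases hb : b = β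
    · subst hb
      simp only [List.count_cons_self, List.length_cons]
      rw [List.countP_cons_of_neg (by simp)]
      omega
    · rw [List.count_cons_of_ne hb, List.countP_cons_of_pos (by simpa using hb),
        List.length_cons]
      omega

theorem nnb_self_append {β : List α} (hne : β ≠ []) (u : List α) : nnb β (β ++ u) = nnb β u := by
  unfold nnb
  rw [chunks_append (List.length_pos_iff.2 hne) β u rfl, List.countP_cons_of_neg (by simp)]

theorem nnb_pw_append {β : List α} (hne : β ≠ []) (k : ℕ) (u : List α) :
    nnb β (pw β k ++ u) = nnb β u := by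
  induction k with
  | zero => rfl
  | succ k ih =>
    show nnb β (β ++ pw β k ++ u) = nnb β u
    rw [List.append_assoc, nnb_self_append hne, ih]

theorem nnb_other_append {β : List α} (hne : β ≠ []) (f u : List α) (hf : f.length = β.length)
    (hfb : f ≠ β) : nnb β (f ++ u) = nnb β u + 1 := by
  unfold nnb
  rw [chunks_append (List.length_pos_iff.2 hne) f u hf,
    List.countP_cons_of_pos (by simpa using hfb)]

theorem nnb_short (β t : List α) (ht : t.length < β.length) : nnb β t = 0 := by
  unfold nnb
  rw [chunks_short t ht]
  rfl

/-- The words of the length of `β` other than `β`. -/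
def Fl (β : List α) : Language α := {f | f.length = β.length ∧ f ≠ β}

/-- The words shorter than `q`. -/
def Tl (q : ℕ) : Language α := {t | t.length < q}

/-- For a primitive word `β`, the number of aligned blocks different from `β` is a good function
modulo every `M`: it is the number of factors in the code `β∗ (A^q \ β)`. -/
theorem nnb_good [Fintype α] {β : List α} (hβ : Prim β) (hne : β ≠ []) (M : ℕ) [NeZero M] :
    GoodN M (nnb β) := by
  have hq : 0 < β.length := List.length_pos_iff.2 hne
  have hF : HLE 0 (Fl β) :=
    ((HLE_len 0 β.length).inter (HLE_single 0 β).compl).congr (fun _ => Iff.rfl)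
  have hT : HLE 0 (Tl β.length : Language α) := HLE_len_lt 0 β.length
  have hB := HLE_Bstar hβ hne
  refine code_good (Z := Bstar β * Fl β) (K := Bstar β * Tl β.length) (nnb β) (hB.mul hF)
    (hB.mul hT) ?_ ?_ ?_ M
  · intro z hz w
    obtain ⟨x, ⟨k, rfl⟩, f, hf, rfl⟩ := Language.mem_mul.1 hz
    have hf' : f.length = β.length ∧ f ≠ β := hf
    rw [List.append_assoc, nnb_pw_append hne, nnb_other_append hne f w hf'.1 hf'.2]
  · intro k hk
    obtain ⟨x, ⟨j, rfl⟩, t, ht, rfl⟩ := Language.mem_mul.1 hk
    have ht' : t.length < β.length := ht
    rw [nnb_pw_append hne, nnb_short β t ht']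
  · refine block_induction hq _ ?_ ?_
    · intro w hw
      left
      have hw' : w ∈ (Tl β.length : Language α) := hw
      exact Language.mem_mul.2 ⟨[], ⟨0, rfl⟩, w, hw', rfl⟩
    · intro b w hb ih
      by_cases hbβ : b = β
      · subst hbβ
        rcases ih with hk | ⟨z, hz, w', rfl⟩
        · left
          obtain ⟨x, ⟨j, rfl⟩, t, ht, rfl⟩ := Language.mem_mul.1 hk
          exact Language.mem_mul.2 ⟨pw b (j + 1), ⟨j + 1, rfl⟩, t, ht, by
            show b ++ pw b j ++ t = b ++ (pw b j ++ t)
            rw [List.append_assoc]⟩
        · right
          obtain ⟨x, ⟨j, rfl⟩, f, hf, rfl⟩ := Language.mem_mul.1 hz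
          refine ⟨pw b (j + 1) ++ f, Language.mem_mul.2 ⟨pw b (j + 1), ⟨j + 1, rfl⟩, f, hf, rfl⟩,
            w', ?_⟩
          show b ++ (pw b j ++ f ++ w') = b ++ pw b j ++ f ++ w'
          simp only [List.append_assoc]
      · right
        have hb' : b ∈ Fl β := ⟨hb, hbβ⟩
        exact ⟨b, Language.mem_mul.2 ⟨[], ⟨0, rfl⟩, b, hb', rfl⟩, w, rfl⟩

end counts

/-- The number of blocks modulo `M` together with the incomplete last block. -/
theorem nblk_tl_level [Fintype α] {q : ℕ} (hq : 0 < q) (t : List α) (M c : ℕ) (hc : c < M) :
    HLE 1 ({w | (chunks q w).length % M = c ∧ tl q w = t} : Language α) := by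
  have hZ : HLE 0 ({w | w.length = q} : Language α) := HLE_len 0 q
  have hK : HLE 0 ({w | w ∈ ({w | w = t} : Language α) ∧
      w ∈ ({_w | t.length < q} : Language α)} : Language α) :=
    (HLE_single 0 t).inter (HLE.const 0 (t.length < q))
  refine code_level (fun w => (chunks q w).length) (fun w => tl q w = t) hZ hK ?_ ?_ ?_ M c hc
  · intro z hz w
    have hz' : z.length = q := hz
    constructor
    · show (chunks q (z ++ w)).length = (chunks q w).length + 1
      rw [chunks_append hq z w hz']
      rfl
    · show tl q (z ++ w) = t ↔ tl q w = t
      rw [tl_append hq z w hz']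
  · rintro k ⟨hk1, hk2⟩
    have hk1' : k = t := hk1
    have hk2' : t.length < q := hk2
    subst hk1'
    constructor
    · show (chunks q k).length = 0
      rw [chunks_short k hk2']
      rfl
    · exact tl_short k hk2'
  · intro w hw
    by_cases h : w.length < q
    · left
      have e : w = t := by rw [← hw, tl_short w h]
      exact ⟨e, by rw [← e]; exact h⟩
    · right
      refine ⟨w.take q, ?_, w.drop q, (List.take_append_drop q w).symm⟩
      show (w.take q).length = q
      rw [List.length_take]
      omega

/-- The number of blocks modulo `M` and the incomplete last block are good functions. -/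
theorem nblk_tl_good [Fintype α] {q : ℕ} (hq : 0 < q) (M : ℕ) [NeZero M] :
    Good (fun w : List α => ((((chunks q w).length : ℕ) : ZMod M), tl q w)) := by
  classical
  have hM : 0 < M := Nat.pos_of_ne_zero (NeZero.ne M)
  have hfin : Fintype ↥({l : List α | l.length < q}) := (List.finite_length_lt α q).fintype
  refine ⟨Fin M × ↥({l : List α | l.length < q}), inferInstance,
    fun i => {w | (chunks q w).length % M = i.1.val ∧ tl q w = i.2.val},
    fun i => nblk_tl_level hq i.2.val M i.1.val i.1.isLt, ?_⟩
  intro w w' hw
  have e := (hw (⟨(chunks q w).length % M, Nat.mod_lt _ hM⟩, ⟨tl q w, tl_length hq w⟩)).1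
    ⟨rfl, rfl⟩
  have e1 : (chunks q w').length % M = (chunks q w).length % M := e.1
  have e2 : tl q w' = tl q w := e.2
  refine Prod.ext ?_ e2.symm
  show (((chunks q w).length : ℕ) : ZMod M) = (((chunks q w').length : ℕ) : ZMod M)
  rw [ZMod.natCast_eq_natCast_iff']
  exact e1.symm

/-- For a primitive word `β`, the number of aligned blocks equal to `β` is a good function modulo
every `M`. -/
theorem cb_good [Fintype α] [DecidableEq α] {β : List α} (hβ : Prim β) (hne : β ≠ []) (M : ℕ)
    [NeZero M] : GoodN M (cb β) := by
  have hq : 0 < β.length := List.length_pos_iff.2 hne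
  have h1 : GoodN M (fun w : List α => (chunks β.length w).length) :=
    (nblk_tl_good hq M).comp Prod.fst
  exact GoodN.cancel (nnb_good hβ hne M) h1 (fun w => cb_add_nnb β w)

end Vale.Agent.Lib.P329.helper10
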