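import Vale.Agent.Lib.P329.helper24.BlockCF
import Vale.Agent.Lib.P329.helper24.Counter

/-!
# P329 (helper10): neutral letters along a cyclic counter

A counter on `ZMod d` is advanced by the letters of a set `B` and left unchanged by the other
(neutral) letters.  `ncnt` is the number of occurrences of a neutral letter `c` read while the
counter is at a given value `x₀`.  It is the difference of two event counts of the same
automaton with hub `x₀`: the arrivals at `x₀`, and the arrivals at `x₀` together with the
occurrences of `c` at `x₀`.  In both cases the event-free automaton is counter-free (a cycle of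
the counter passes through `x₀`), so `ncnt` is a good function modulo every `M`.
-/

namespace Vale.Agent.Lib.P329.helper10

open Vale.Agent.Lib.P329 Vale.Agent.Lib.P329.helper24

variable {α : Type} [DecidableEq α] (d : ℕ) [NeZero d] (B : α → Bool) (c : α) (x₀ : ZMod d)

/-- The counter: letters of `B` add one. -/
def cstep (s : ZMod d) (c' : α) : ZMod d := if B c' = true then s + 1 else s

/-- First kind of event: an arrival at `x₀`. -/
def cev1 (s : ZMod d) (c' : α) : Bool := B c' && decide (s + 1 = x₀)

/-- Second kind of event: an arrival at `x₀`, or the neutral letter `c` read at `x₀`. -/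
def cev2 (s : ZMod d) (c' : α) : Bool :=
  (B c' && decide (s + 1 = x₀)) || (!B c' && (decide (c' = c) && decide (s = x₀)))

/-- The number of occurrences of the neutral letter `c` read at the value `x₀`. -/
def ncnt : ZMod d → List α → ℕ
  | _, [] => 0
  | s, c' :: w => (if B c' = false ∧ c' = c ∧ s = x₀ then 1 else 0) + ncnt (cstep d B s c') w

theorem cland1 (s : ZMod d) (c' : α) (h : cev1 d B x₀ s c' = true) : cstep d B s c' = x₀ := by
  unfold cev1 at h
  unfold cstep
  simp only [Bool.and_eq_true, decide_eq_true_eq] at h
  rw [if_pos h.1]
  exact h.2

theorem cland2 (s : ZMod d) (c' : α) (h : cev2 d B c x₀ s c' = true) : cstep d B s c' = x₀ := by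
  unfold cev2 at h
  unfold cstep
  simp only [Bool.or_eq_true, Bool.and_eq_true, decide_eq_true_eq, Bool.not_eq_true'] at h
  rcases h with h | h
  · rw [if_pos h.1]
    exact h.2
  · rw [if_neg (by rw [h.1]; simp)]
    exact h.2.2

theorem ecount_cev2 (w : List α) : ∀ s : ZMod d,
    ncnt d B c x₀ s w + ecount (cstep d B) (cev1 d B x₀) s w
      = ecount (cstep d B) (cev2 d B c x₀) s w := by
  induction w with
  | nil => intro s; rfl
  | cons c' w ih =>
    intro s
    simp only [ncnt, ecount]
    rw [← ih (cstep d B s c')]
    have key : (if B c' = false ∧ c' = c ∧ s = x₀ then 1 else 0)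
        + (if cev1 d B x₀ s c' = true then 1 else 0)
        = (if cev2 d B c x₀ s c' = true then 1 else 0) := by
      unfold cev1 cev2
      cases hB : B c'
      · by_cases h1 : c' = c ∧ s = x₀
        · simp [h1]
        · have h1' : ¬ (c' = c ∧ s = x₀) := h1
          simp only [Bool.false_and, Bool.false_or, Bool.not_false, Bool.true_and]
          by_cases h2 : c' = c
          · have h3 : ¬ (s = x₀) := fun h => h1 ⟨h2, h⟩
            simp [h2, h3]
          · simp [h2]
      · simp
    omega

section cf

variable (ev : ZMod d → α → Bool)

theorem chain_phase : ∀ (v : List α) (s s' : ZMod d),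
    run (kill (cstep d B) ev) (some s) v = some s' → s' = s + ((v.countP B : ℕ) : ZMod d) := by
  intro v
  induction v with
  | nil =>
    intro s s' h
    have h' : some s = some s' := h
    simp only [Option.some.injEq] at h'
    simp [h']
  | cons c' v ih =>
    intro s s' h
    rw [cf_run_kill_cons] at h
    by_cases he : ev s c' = true
    · rw [if_pos he] at h
      exact absurd h (by simp)
    · rw [if_neg he] at h
      have h1 := ih _ _ h
      rw [h1]
      unfold cstep
      cases hB : B c'
      · simp [hB]
      · simp [hB]
        ring

theorem chain_kill (hwrap : ∀ s c', B c' = true → s + 1 = x₀ → ev s c' = true) :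
    ∀ (v : List α) (s : ZMod d) (j : ℕ), 1 ≤ j → j ≤ v.countP B → s + (j : ZMod d) = x₀ →
      run (kill (cstep d B) ev) (some s) v = none := by
  intro v
  induction v with
  | nil =>
    intro s j hj1 hj2 _
    simp at hj2
    omega
  | cons c' v ih =>
    intro s j hj1 hj2 hs
    rw [cf_run_kill_cons]
    by_cases he : ev s c' = true
    · rw [if_pos he]
    · rw [if_neg he]
      cases hB : B c'
      · have e : cstep d B s c' = s := by unfold cstep; simp [hB]
        rw [e]
        refine ih s j hj1 ?_ hs
        rw [List.countP_cons_of_neg (by simp [hB])] at hj2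
        exact hj2
      · have e : cstep d B s c' = s + 1 := by unfold cstep; simp [hB]
        rw [e]
        rw [List.countP_cons_of_pos hB] at hj2
        have hj : j ≠ 1 := by
          rintro rfl
          apply he
          apply hwrap s c' hB
          rw [← hs]
          simp
        refine ih (s + 1) (j - 1) (by omega) (by omega) ?_
        rw [← hs]
        have : ((j - 1 : ℕ) : ZMod d) = (j : ZMod d) - 1 := by
          rw [Nat.cast_sub hj1]
          simp
        rw [this]
        ring

theorem countP_rep (u : List α) : ∀ n : ℕ, (rep n u).countP B = n * u.countP B := by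
  intro n
  induction n with
  | zero => simp [rep]
  | succ n ih =>
    show (rep n u ++ u).countP B = _
    rw [List.countP_append, ih]
    ring

theorem chain_periodic_fixed (hwrap : ∀ s c', B c' = true → s + 1 = x₀ → ev s c' = true)
    (u : List α) (t : Option (ZMod d)) (n : ℕ) (hn : 0 < n)
    (h : (fun t => run (kill (cstep d B) ev) t u)^[n] t = t) :
    run (kill (cstep d B) ev) t u = t := by
  cases t with
  | none => exact cf_run_kill_none _ _ u
  | some s =>
    rw [← cf_run_rep] at h
    have hph := chain_phase d B ev (rep n u) s s h
    rw [countP_rep] at hph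
    have hdvd : d ∣ n * u.countP B := by
      rw [← ZMod.natCast_eq_zero_iff]
      have e : s + ((n * u.countP B : ℕ) : ZMod d) = s + 0 := by rw [add_zero]; exact hph.symm
      exact add_left_cancel e
    by_cases hm : u.countP B = 0
    · cases hu : run (kill (cstep d B) ev) (some s) u with
      | none =>
        exfalso
        obtain ⟨n', rfl⟩ : ∃ n', n = n' + 1 := ⟨n - 1, by omega⟩
        rw [cf_rep_succ', run_append, hu, cf_run_kill_none] at h
        exact absurd h (by simp)
      | some s' =>
        have h1 := chain_phase d B ev u s s' hu
        rw [hm] at h1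
        simp at h1
        rw [h1]
    · exfalso
      have hpos : 0 < n * u.countP B := Nat.mul_pos hn (Nat.pos_of_ne_zero hm)
      have hle : d ≤ n * u.countP B := Nat.le_of_dvd hpos hdvd
      have hd : 0 < d := Nat.pos_of_ne_zero (NeZero.ne d)
      have hkill : run (kill (cstep d B) ev) (some s) (rep n u) = none := by
        by_cases hr : (x₀ - s).val = 0
        · have hxs : x₀ = s := by
            have := (ZMod.val_eq_zero (x₀ - s)).1 hr
            exact sub_eq_zero.1 this
          refine chain_kill d B x₀ ev hwrap (rep n u) s d (by omega) ?_ ?_
          · rw [countP_rep]; exact hle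
          · rw [ZMod.natCast_self, add_zero, hxs]
        · refine chain_kill d B x₀ ev hwrap (rep n u) s (x₀ - s).val (by omega) ?_ ?_
          · rw [countP_rep]
            have := ZMod.val_lt (x₀ - s)
            omega
          · rw [ZMod.natCast_zmod_val]
            ring
      rw [hkill] at h
      exact absurd h (by simp)

theorem chain_counterfree (hwrap : ∀ s c', B c' = true → s + 1 = x₀ → ev s c' = true) :
    CounterFree (kill (cstep d B) ev) := by
  intro u
  obtain ⟨k, hk⟩ := cf_aperiodic_of_periodic_fixed
    (fun t => run (kill (cstep d B) ev) t u)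
    (fun t n hn h => chain_periodic_fixed d B x₀ ev hwrap u t n hn h)
  exact ⟨k, fun s => by rw [cf_run_rep, cf_run_rep]; exact hk s⟩

end cf

/-- The number of occurrences of a neutral letter read at a given value of the counter is a good
function modulo every `M`. -/
theorem ncnt_good [Fintype α] (M : ℕ) [NeZero M] (s₀ : ZMod d) : GoodN M (ncnt d B c x₀ s₀) := by
  have h1 : GoodN M (ecount (cstep d B) (cev1 d B x₀) s₀) :=
    (Good.of_counterfree (cstep d B) (cev1 d B x₀) x₀ (cland1 d B x₀)
      (chain_counterfree d B x₀ (cev1 d B x₀) (fun s c' hB hs => by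
        unfold cev1; simp [hB, hs])) M s₀).comp Prod.snd
  have h2 : GoodN M (ecount (cstep d B) (cev2 d B c x₀) s₀) :=
    (Good.of_counterfree (cstep d B) (cev2 d B c x₀) x₀ (cland2 d B c x₀)
      (chain_counterfree d B x₀ (cev2 d B c x₀) (fun s c' hB hs => by
        unfold cev2; simp [hB, hs])) M s₀).comp Prod.snd
  exact GoodN.cancel h1 h2 (fun w => ecount_cev2 d B c x₀ w s₀)

end Vale.Agent.Lib.P329.helper10
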