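import Vale.Agent.Lib.P329.helper24.Event

/-!
# P329 (helper10): star-free basics and counting the factors of a star-free code

* singletons, words of a given length, words beginning with a given word are star-free;
* `code_level`: if every word factors uniquely as a product of words of a star-free language `Z`
  followed by a remainder in a star-free language `K`, then the number of `Z`-factors modulo `M`
  is given by the expression `(Z ^ M)∗ * (Z ^ c * K)` of generalized star height one.
-/

namespace Vale.Agent.Lib.P329.helper10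

open Vale.Agent.Lib.P329 Vale.Agent.Lib.P329.helper24

variable {α : Type}

theorem HLE_single (n : ℕ) (u : List α) : HLE n ({w | w = u} : Language α) := by
  induction u with
  | nil =>
    exact (HLE.one n).congr (fun w => (Language.mem_one w).symm)
  | cons c u ih =>
    refine ((HLE.letter n c).mul ih).congr ?_
    intro w
    constructor
    · rintro rfl
      exact Language.mem_mul.2 ⟨[c], rfl, u, rfl, rfl⟩
    · intro hw
      obtain ⟨x, hx, y, hy, rfl⟩ := Language.mem_mul.1 hw
      have hx' : x = [c] := hx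
      have hy' : y = u := hy
      subst hx' hy'
      rfl

theorem HLE_len [Fintype α] (n : ℕ) (k : ℕ) : HLE n ({w | w.length = k} : Language α) := by
  induction k with
  | zero =>
    exact (HLE.one n).congr (fun w => by
      rw [Language.mem_one]
      exact List.length_eq_zero_iff)
  | succ k ih =>
    have h1 : HLE n ({w | ∃ a : α, True ∧ w ∈ ({[a]} : Language α)} : Language α) :=
      HLE.exists (fun _ => True) (fun a => ({[a]} : Language α)) (fun a _ => HLE.letter n a)
    refine (h1.mul ih).congr ?_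
    intro w
    constructor
    · intro hw
      have hw' : w.length = k + 1 := hw
      match w, hw' with
      | c :: v, hv =>
        refine Language.mem_mul.2 ⟨[c], ⟨c, trivial, rfl⟩, v, ?_, rfl⟩
        show v.length = k
        simpa using hv
    · intro hw
      obtain ⟨x, ⟨a, _, hx⟩, y, hy, rfl⟩ := Language.mem_mul.1 hw
      have hx' : x = [a] := hx
      have hy' : y.length = k := hy
      subst hx'
      show ([a] ++ y).length = k + 1
      simp [hy']

theorem HLE_len_lt [Fintype α] (n : ℕ) (k : ℕ) : HLE n ({w | w.length < k} : Language α) := by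
  have h1 := HLE.exists (n := n) (fun _ : Fin k => True)
    (fun j => ({w | w.length = j.val} : Language α)) (fun j _ => HLE_len n j.val)
  refine h1.congr ?_
  intro w
  constructor
  · intro hw
    exact ⟨⟨w.length, hw⟩, trivial, rfl⟩
  · rintro ⟨j, _, hj⟩
    have hj' : w.length = j.val := hj
    show w.length < k
    rw [hj']
    exact j.isLt

/-- Words that begin with `u`. -/
theorem HLE_begins (n : ℕ) (u : List α) : HLE n ({w | ∃ v, w = u ++ v} : Language α) := by
  refine ((HLE_single n u).mul (HLE.all n)).congr ?_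
  intro w
  constructor
  · rintro ⟨v, rfl⟩
    exact Language.mem_mul.2 ⟨u, rfl, v, trivial, rfl⟩
  · intro hw
    obtain ⟨x, hx, y, _, rfl⟩ := Language.mem_mul.1 hw
    have hx' : x = u := hx
    subst hx'
    exact ⟨y, rfl⟩

section code

variable {Z K : Language α} (cnt : List α → ℕ) (R : List α → Prop)

theorem code_pow (h1 : ∀ z ∈ Z, ∀ w, cnt (z ++ w) = cnt w + 1 ∧ (R (z ++ w) ↔ R w)) :
    ∀ (j : ℕ) (y : List α), y ∈ Z ^ j → ∀ w, cnt (y ++ w) = cnt w + j ∧ (R (y ++ w) ↔ R w) := by
  intro j
  induction j with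
  | zero =>
    intro y hy w
    rw [pow_zero, Language.mem_one] at hy
    subst hy
    simp
  | succ j ih =>
    intro y hy w
    rw [pow_succ] at hy
    obtain ⟨y1, hy1, z, hz, rfl⟩ := Language.mem_mul.1 hy
    have e1 := ih y1 hy1 (z ++ w)
    have e2 := h1 z hz w
    rw [List.append_assoc]
    refine ⟨?_, e1.2.trans e2.2⟩
    rw [e1.1, e2.1]
    omega

theorem code_star (h1 : ∀ z ∈ Z, ∀ w, cnt (z ++ w) = cnt w + 1 ∧ (R (z ++ w) ↔ R w)) (M : ℕ)
    (x : List α) (hx : x ∈ KStar.kstar (Z ^ M)) :
    ∀ w, cnt (x ++ w) % M = cnt w % M ∧ (R (x ++ w) ↔ R w) := by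
  obtain ⟨S, rfl, hS⟩ := Language.mem_kstar.1 hx
  induction S with
  | nil =>
    intro w
    simp
  | cons y S ih =>
    intro w
    have e1 := code_pow cnt R h1 M y (hS y (List.mem_cons_self ..)) (S.flatten ++ w)
    have e2 := ih (fun y hy => hS y (List.mem_cons_of_mem _ hy))
      (Language.mem_kstar.2 ⟨S, rfl, fun y hy => hS y (List.mem_cons_of_mem _ hy)⟩) w
    rw [List.flatten_cons, List.append_assoc]
    refine ⟨?_, e1.2.trans e2.2⟩
    rw [e1.1, Nat.add_mod_right]
    exact e2.1

theorem code_decomp (h1 : ∀ z ∈ Z, ∀ w, cnt (z ++ w) = cnt w + 1 ∧ (R (z ++ w) ↔ R w))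
    (h2 : ∀ k ∈ K, cnt k = 0 ∧ R k)
    (h3 : ∀ w, R w → (w ∈ K ∨ ∃ z ∈ Z, ∃ w', w = z ++ w')) :
    ∀ (m : ℕ) (w : List α), w.length ≤ m → R w → w ∈ Z ^ (cnt w) * K := by
  intro m
  induction m with
  | zero =>
    intro w hw hR
    rcases h3 w hR with hk | ⟨z, hz, w', rfl⟩
    · rw [(h2 w hk).1, pow_zero, one_mul]
      exact hk
    · have e := (h1 z hz w').1
      have hz0 : z = [] := by
        have : (z ++ w').length = 0 := Nat.le_zero.1 hw
        rw [List.length_append] at this
        exact List.length_eq_zero_iff.1 (by omega)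
      subst hz0
      simp at e
  | succ m ih =>
    intro w hw hR
    rcases h3 w hR with hk | ⟨z, hz, w', rfl⟩
    · rw [(h2 w hk).1, pow_zero, one_mul]
      exact hk
    · have e := h1 z hz w'
      have hz0 : z ≠ [] := by
        rintro rfl
        have := e.1
        simp at this
      have hlen : w'.length ≤ m := by
        rw [List.length_append] at hw
        have : 0 < z.length := List.length_pos_iff.2 hz0
        omega
      have h4 := ih w' hlen (e.2.1 hR)
      rw [e.1, pow_succ', mul_assoc]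
      exact Language.mem_mul.2 ⟨z, hz, w', h4, rfl⟩

/-- Counting the factors of a star-free code modulo `M`, together with a property of the
remainder, is a language of generalized star height at most one. -/
theorem code_level (hZ : HLE 0 Z) (hK : HLE 0 K)
    (h1 : ∀ z ∈ Z, ∀ w, cnt (z ++ w) = cnt w + 1 ∧ (R (z ++ w) ↔ R w))
    (h2 : ∀ k ∈ K, cnt k = 0 ∧ R k)
    (h3 : ∀ w, R w → (w ∈ K ∨ ∃ z ∈ Z, ∃ w', w = z ++ w'))
    (M c : ℕ) (hc : c < M) : HLE 1 ({w | cnt w % M = c ∧ R w} : Language α) := by
  have hexp : HLE 1 (KStar.kstar (Z ^ M) * (Z ^ c * K)) :=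
    (HLE_pow hZ M).star.mul (((HLE_pow hZ c).mul hK).mono (Nat.zero_le 1))
  refine hexp.congr ?_
  intro w
  constructor
  · rintro ⟨hw, hR⟩
    have h4 := code_decomp cnt R h1 h2 h3 w.length w le_rfl hR
    have e : cnt w = M * (cnt w / M) + c := by
      have := Nat.div_add_mod (cnt w) M
      omega
    rw [e, pow_add, pow_mul, mul_assoc] at h4
    obtain ⟨x, hx, y, hy, rfl⟩ := Language.mem_mul.1 h4
    have hle : ∀ t : ℕ, (Z ^ M) ^ t ≤ KStar.kstar (Z ^ M) := fun t => pow_le_kstar
    exact Language.mem_mul.2 ⟨x, hle _ hx, y, hy, rfl⟩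
  · intro hw
    obtain ⟨x, hx, y, hy, rfl⟩ := Language.mem_mul.1 hw
    obtain ⟨y1, hy1, k, hk, rfl⟩ := Language.mem_mul.1 hy
    have e1 := code_star cnt R h1 M x hx (y1 ++ k)
    have e2 := code_pow cnt R h1 c y1 hy1 k
    have e3 := h2 k hk
    refine ⟨?_, e1.2.2 (e2.2.2 e3.2)⟩
    rw [e1.1, e2.1, e3.1, zero_add]
    exact Nat.mod_eq_of_lt hc

/-- The number of factors of a star-free code is a good function modulo every `M`. -/
theorem code_good (hZ : HLE 0 Z) (hK : HLE 0 K)
    (h1 : ∀ z ∈ Z, ∀ w, cnt (z ++ w) = cnt w + 1)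
    (h2 : ∀ k ∈ K, cnt k = 0)
    (h3 : ∀ w, w ∈ K ∨ ∃ z ∈ Z, ∃ w', w = z ++ w')
    (M : ℕ) [NeZero M] : GoodN M cnt := by
  have hM : 0 < M := Nat.pos_of_ne_zero (NeZero.ne M)
  refine ⟨Fin M, inferInstance, fun i => {w | cnt w % M = i.val ∧ True}, fun i => ?_, ?_⟩
  · exact code_level cnt (fun _ => True) hZ hK (fun z hz w => ⟨h1 z hz w, Iff.rfl⟩)
      (fun k hk => ⟨h2 k hk, trivial⟩) (fun w _ => h3 w) M i.val i.isLt
  · intro w w' hw
    have e := (hw ⟨cnt w % M, Nat.mod_lt _ hM⟩).1 ⟨rfl, trivial⟩
    rw [ZMod.natCast_eq_natCast_iff']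
    exact e.1.symm

end code

end Vale.Agent.Lib.P329.helper10
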