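import Vale.Agent.Lib.P329.helper10.Positional
import Vale.Agent.Lib.P329.helper24.AbKernel

/-!
# P329 (helper10): all letters in one coset of an abelian normal subgroup

If all letters are sent into one coset `g A` of an abelian normal subgroup `A` of a finite group
`G`, the induced walk on `G ⧸ A` is at the phase `(g A) ^ i` after `i` letters, so its phase
counts are the positional counts `pc d a ρ` with `d` the order of `g A` (prime or not), which are
good by `pc_good`.
-/

namespace Vale.Agent.Lib.P329.helper10

open Vale.Agent.Lib.P329 Vale.Agent.Lib.P329.helper24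

variable {α : Type}

/-- The length of a word is a good function modulo every `M`. -/
theorem length_good [Fintype α] (M : ℕ) [NeZero M] : GoodN M (List.length : List α → ℕ) := by
  refine code_good (Z := ({w | w.length = 1} : Language α)) (K := ({w | w = []} : Language α))
    List.length (HLE_len 0 1) (HLE_single 0 []) ?_ ?_ ?_ M
  · intro z hz w
    have hz' : z.length = 1 := hz
    rw [List.length_append, hz']
    omega
  · intro k hk
    have hk' : k = [] := hk
    rw [hk']
    rfl
  · intro w
    cases w with
    | nil => left; rfl
    | cons c w => right; exact ⟨[c], rfl, w, rfl⟩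

/-- A finite sum of functions that are good modulo `N` is good modulo `N`. -/
theorem GoodN_sum {N : ℕ} {ι : Type} (s : Finset ι) (f : ι → List α → ℕ)
    (hf : ∀ i ∈ s, GoodN N (f i)) : GoodN N (fun w => ∑ i ∈ s, f i w) := by
  have h := Good.sum s (fun i w => (((f i w : ℕ)) : ZMod N)) hf
  refine h.of_det _ ?_
  intro w w' hw
  push_cast
  exact hw

/-- The phase counts of the walk with constant weight `u` are sums of positional counts. -/
theorem mzc_const [DecidableEq α] {Q : Type} [Group Q] [DecidableEq Q] (u : Q) (d : ℕ) (hd : 0 < d)
    (hu : ∀ n : ℕ, u ^ (n % d) = u ^ n) (a : α) (x : Q) : ∀ (w : List α) (n : ℕ),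
    mzcAux (fun _ : α => u) a x (u ^ n) w
      = ∑ ρ ∈ Finset.range d, if u ^ ρ = x then pcA d a ρ n w else 0 := by
  classical
  intro w
  induction w with
  | nil =>
    intro n
    simp [mzcAux, pcA]
  | cons c w ih =>
    intro n
    have e1 : mzcAux (fun _ : α => u) a x (u ^ n) (c :: w)
        = (if c = a ∧ u ^ n = x then 1 else 0) + mzcAux (fun _ : α => u) a x (u ^ (n + 1)) w := by
      rw [pow_succ]
      simp only [mzcAux]
      congr 1
      by_cases h : c = a ∧ u ^ n = x
      · rw [if_pos h, if_pos h]
      · rw [if_neg h, if_neg h]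
    rw [e1, ih (n + 1)]
    have e2 : ∀ ρ ∈ Finset.range d, (if u ^ ρ = x then pcA d a ρ n (c :: w) else 0)
        = (if ρ = n % d then (if c = a ∧ u ^ n = x then 1 else 0) else 0)
          + (if u ^ ρ = x then pcA d a ρ (n + 1) w else 0) := by
      intro ρ _
      by_cases hρ : ρ = n % d
      · subst hρ
        rw [if_pos rfl, hu n]
        by_cases hx : u ^ n = x
        · rw [if_pos hx, if_pos hx]
          simp only [pcA]
          by_cases hc : c = a
          · simp [hc, hx]
          · simp [hc]
        · rw [if_neg hx, if_neg hx]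
          have : ¬ (c = a ∧ u ^ n = x) := fun h => hx h.2
          rw [if_neg this]
      · rw [if_neg hρ, zero_add]
        by_cases hx : u ^ ρ = x
        · rw [if_pos hx, if_pos hx]
          simp only [pcA]
          have : ¬ (c = a ∧ n % d = ρ) := fun h => hρ h.2.symm
          rw [if_neg this, zero_add]
        · rw [if_neg hx, if_neg hx]
    rw [Finset.sum_congr rfl e2, Finset.sum_add_distrib, Finset.sum_ite_eq']
    have hmem : n % d ∈ Finset.range d := Finset.mem_range.2 (Nat.mod_lt _ hd)
    rw [if_pos hmem]

/-- **One coset.**  Let `A` be an abelian normal subgroup of a finite group `G` and let all letters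
be sent into one coset `g A`.  Then every language recognized through this morphism has
generalized star height at most one. -/
theorem one_coset {G : Type} [Group G] [Finite G] (A : Subgroup G) [A.Normal]
    (hA : ∀ a ∈ A, ∀ b ∈ A, a * b = b * a) {α : Type} [Fintype α] (φ : α → G) (g : G)
    (hφ : ∀ c, g⁻¹ * φ c ∈ A) (T : Set G) :
    HLE 1 ({w | (w.map φ).prod ∈ T} : Language α) := by
  classical
  have hwt : (fun c => (φ c : G ⧸ A)) = fun _ : α => (g : G ⧸ A) := by
    funext c
    exact (QuotientGroup.eq.2 (hφ c)).symm
  have hcard : 0 < Nat.card G := Nat.card_pos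
  have : NeZero (Nat.card G) := ⟨hcard.ne'⟩
  have hd : 0 < orderOf (g : G ⧸ A) := orderOf_pos _
  refine abelian_kernel_of_zone A hA φ ?_ ?_ T
  · intro a x
    rw [hwt]
    have h1 : GoodN (Nat.card G) (fun w => ∑ ρ ∈ Finset.range (orderOf (g : G ⧸ A)),
        if (g : G ⧸ A) ^ ρ = x then pc (orderOf (g : G ⧸ A)) a ρ w else 0) := by
      refine GoodN_sum _ _ (fun ρ _ => ?_)
      by_cases hx : (g : G ⧸ A) ^ ρ = x
      · simp only [if_pos hx]
        exact pc_good _ hd a ρ (Nat.card G)
      · simp only [if_neg hx]
        exact GoodN.const _ 0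
    refine h1.congr ?_
    intro w
    have h2 := mzc_const (g : G ⧸ A) (orderOf (g : G ⧸ A)) hd (fun n => pow_mod_orderOf _ n) a x
      w 0
    rw [pow_zero] at h2
    exact h2
  · have hprod : ∀ w : List α, (((w.map φ).prod : G) : G ⧸ A) = (g : G ⧸ A) ^ w.length := by
      intro w
      induction w with
      | nil => simp
      | cons c w ih =>
        rw [List.map_cons, List.prod_cons, QuotientGroup.mk_mul, ih, List.length_cons, pow_succ']
        congr 1
        exact congrFun hwt c
    have hl : GoodN (Nat.card G) (List.length : List α → ℕ) := length_good _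
    refine Good.of_det hl _ ?_
    intro w w' hw
    rw [hprod, hprod]
    have hq : ((g : G ⧸ A)) ^ Nat.card G = 1 := by
      rw [← QuotientGroup.mk_pow, pow_card_eq_one']
      rfl
    exact ak_pow_eq_of_natCast_eq _ (Nat.card G) hq hw

end Vale.Agent.Lib.P329.helper10
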