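import Vale.Agent.Lib.P329.helper24.Good

/-!
# P329 (helper10): erasing letters

The languages of generalized star height at most `n` are closed under inverse images of the map
that erases the letters outside a given set: replace every letter `a` of an expression by
`N∗ a N∗` (or by `0` when `a` is erased), `1` by `N∗` and `L∗` by `L∗ + N∗`, where `N` is the
set of erased letters.  Consequently good functions can be composed with erasing maps.
-/

namespace Vale.Agent.Lib.P329.helper10

open Vale.Agent.Lib.P329 Vale.Agent.Lib.P329.helper24

variable {α : Type}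

theorem filter_single_iff (P : α → Bool) (a : α) (ha : P a = true) (w : List α) :
    w.filter P = [a] ↔ ∃ u v, w = u ++ a :: v ∧ (∀ c ∈ u, ¬ (P c = true)) ∧
      (∀ c ∈ v, ¬ (P c = true)) := by
  constructor
  · intro h
    obtain ⟨l₁, l₂, rfl, h1, _, h3⟩ := List.filter_eq_cons_iff.1 h
    exact ⟨l₁, l₂, rfl, h1, List.filter_eq_nil_iff.1 h3⟩
  · rintro ⟨u, v, rfl, h1, h2⟩
    rw [List.filter_append, List.filter_cons_of_pos ha, List.filter_eq_nil_iff.2 h1,
      List.filter_eq_nil_iff.2 h2]
    rfl

theorem mem_kstar_cons {L : Language α} {x z : List α} (hx : x ∈ L) (hz : z ∈ KStar.kstar L) :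
    x ++ z ∈ KStar.kstar L := by
  obtain ⟨S, rfl, hS⟩ := Language.mem_kstar.1 hz
  exact Language.mem_kstar.2 ⟨x :: S, rfl, fun y hy => by
    rcases List.mem_cons.1 hy with rfl | h
    · exact hx
    · exact hS y h⟩

theorem mem_kstar_self {L : Language α} {x : List α} (hx : x ∈ L) : x ∈ KStar.kstar L := by
  have h := mem_kstar_cons hx (Language.nil_mem_kstar L)
  rwa [List.append_nil] at h

/-- The words all of whose letters are erased. -/
def Nstar (P : α → Bool) : Language α := {w | ∀ c ∈ w, ¬ (P c = true)}

/-- The inverse image of a language under erasing the letters that do not satisfy `P`. -/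
def Pre (P : α → Bool) (L : Language α) : Language α := {w | w.filter P ∈ L}

theorem HLE_filter_aux [Fintype α] (P : α → Bool) : ∀ (e : GRE α) (n : ℕ), e.height ≤ n →
    HLE n (Pre P e.lang) := by
  have hN : ∀ n : ℕ, HLE n (Nstar P) :=
    fun n => HLE.letters n (fun c => ¬ (P c = true))
  intro e
  induction e with
  | zero =>
    intro n _
    exact (HLE.zero n).congr (fun w => Iff.rfl)
  | one =>
    intro n _
    refine (hN n).congr ?_
    intro w
    show w.filter P ∈ (1 : Language α) ↔ _
    rw [Language.mem_one]
    exact List.filter_eq_nil_iff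
  | letter a =>
    intro n _
    by_cases ha : P a = true
    · refine (((hN n).mul (HLE.letter n a)).mul (hN n)).congr ?_
      intro w
      show w.filter P = [a] ↔ _
      rw [filter_single_iff P a ha]
      constructor
      · rintro ⟨u, v, rfl, h1, h2⟩
        have e : u ++ a :: v = (u ++ [a]) ++ v := by simp
        rw [e]
        exact Language.mem_mul.2 ⟨u ++ [a], Language.mem_mul.2 ⟨u, h1, [a], rfl, rfl⟩, v, h2, rfl⟩
      · intro hw
        obtain ⟨x, hx, v, h2, rfl⟩ := Language.mem_mul.1 hw
        obtain ⟨u, h1, y, hy, rfl⟩ := Language.mem_mul.1 hx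
        have hy' : y = [a] := hy
        subst hy'
        exact ⟨u, v, by simp, h1, h2⟩
    · refine (HLE.zero n).congr ?_
      intro w
      constructor
      · intro hw
        have hw' : w.filter P = [a] := hw
        have hmem : a ∈ w.filter P := by rw [hw']; exact List.mem_singleton_self a
        exact absurd (List.mem_filter.1 hmem).2 ha
      · intro hw
        exact absurd hw (Language.notMem_zero w)
  | plus p q ihp ihq =>
    intro n hn
    have hp : p.height ≤ n := le_trans (le_max_left _ _) hn
    have hq : q.height ≤ n := le_trans (le_max_right _ _) hn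
    refine ((ihp n hp).add (ihq n hq)).congr ?_
    intro w
    show w.filter P ∈ p.lang + q.lang ↔ _
    exact (Language.mem_add _ _ _).trans (Language.mem_add _ _ _).symm
  | comp p q ihp ihq =>
    intro n hn
    have hp : p.height ≤ n := le_trans (le_max_left _ _) hn
    have hq : q.height ≤ n := le_trans (le_max_right _ _) hn
    refine ((ihp n hp).mul (ihq n hq)).congr ?_
    intro w
    show w.filter P ∈ p.lang * q.lang ↔ _
    constructor
    · intro hw
      obtain ⟨x, hx, y, hy, hxy⟩ := Language.mem_mul.1 hw
      obtain ⟨l₁, l₂, rfl, h1, h2⟩ := List.filter_eq_append_iff.1 hxy.symm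
      refine Language.mem_mul.2 ⟨l₁, ?_, l₂, ?_, rfl⟩
      · show l₁.filter P ∈ p.lang
        rw [h1]; exact hx
      · show l₂.filter P ∈ q.lang
        rw [h2]; exact hy
    · intro hw
      obtain ⟨l₁, h1, l₂, h2, rfl⟩ := Language.mem_mul.1 hw
      rw [List.filter_append]
      exact Language.mem_mul.2 ⟨_, h1, _, h2, rfl⟩
  | neg p ihp =>
    intro n hn
    exact (ihp n hn).compl.congr (fun w => Iff.rfl)
  | star p ihp =>
    intro n hn
    obtain ⟨m, rfl⟩ : ∃ m, n = m + 1 := ⟨n - 1, by
      have : p.height + 1 ≤ n := hn
      omega⟩
    have hp : p.height ≤ m := by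
      have : p.height + 1 ≤ m + 1 := hn
      omega
    have h1 := ((ihp m hp).star).add (hN (m + 1))
    refine h1.congr ?_
    intro w
    show w.filter P ∈ KStar.kstar p.lang ↔ _
    refine Iff.trans ?_ (Language.mem_add _ _ _).symm
    constructor
    · intro hw
      obtain ⟨S, hS1, hS2⟩ := Language.mem_kstar.1 hw
      clear hw
      induction S generalizing w with
      | nil =>
        right
        exact List.filter_eq_nil_iff.1 hS1
      | cons y S ih =>
        rw [List.flatten_cons] at hS1
        obtain ⟨l₁, l₂, rfl, e1, e2⟩ := List.filter_eq_append_iff.1 hS1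
        have hl1 : l₁ ∈ Pre P p.lang := by
          show l₁.filter P ∈ p.lang
          rw [e1]
          exact hS2 y List.mem_cons_self
        rcases ih l₂ e2 (fun z hz => hS2 z (List.mem_cons_of_mem _ hz)) with h | h
        · left
          exact mem_kstar_cons hl1 h
        · left
          have e3 : (l₁ ++ l₂) ∈ Pre P p.lang := by
            show (l₁ ++ l₂).filter P ∈ p.lang
            rw [List.filter_append, List.filter_eq_nil_iff.2 h, List.append_nil]
            exact hl1
          exact mem_kstar_self e3
    · rintro (hw | hw)
      · obtain ⟨S, rfl, hS⟩ := Language.mem_kstar.1 hw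
        refine Language.mem_kstar.2 ⟨S.map (List.filter P), ?_, ?_⟩
        · rw [List.filter_flatten]
        · intro y hy
          obtain ⟨z, hz, rfl⟩ := List.mem_map.1 hy
          exact hS z hz
      · have e : w.filter P = [] := List.filter_eq_nil_iff.2 hw
        rw [e]
        exact Language.nil_mem_kstar _

theorem HLE_filter [Fintype α] (P : α → Bool) {n : ℕ} {L : Language α} (hL : HLE n L) :
    HLE n ({w | w.filter P ∈ L} : Language α) := by
  obtain ⟨e, he, rfl⟩ := hL
  exact (HLE_filter_aux P e n he).congr (fun w => Iff.rfl)

/-- A good function composed with the erasing of letters is good. -/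
theorem Good.filter [Fintype α] {γ : Type} {f : List α → γ} (hf : Good f) (P : α → Bool) :
    Good (fun w => f (w.filter P)) := by
  obtain ⟨ι, inst, F, hF, hdet⟩ := hf
  exact ⟨ι, inst, fun i => {w | w.filter P ∈ F i}, fun i => HLE_filter P (hF i),
    fun w w' h => hdet _ _ h⟩

end Vale.Agent.Lib.P329.helper10
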