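import Vale.Agent.Lib.P329.helper10.Coset
import Vale.Agent.Lib.P329.helper10.Erase
import Vale.Agent.Lib.P329.helper10.Chain

/-!
# P329 (helper10): letters in `A ∪ g A` for an abelian normal subgroup `A`

The letters sent into `A` are neutral for the walk on `G ⧸ A`, the others advance it by `g A`.
The phase counts of a non-neutral letter are positional counts of the word with the neutral
letters erased (`Positional`, `Erase`); those of a neutral letter are handled in `Chain`.
-/

namespace Vale.Agent.Lib.P329.helper10

open Vale.Agent.Lib.P329 Vale.Agent.Lib.P329.helper24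

variable {α : Type}

/-- The phase counts of the walk with constant weight are good modulo every `N`. -/
theorem mzc_const_good [Fintype α] [DecidableEq α] {Q : Type} [Group Q] [Finite Q] (u : Q) (a : α)
    (x : Q) (N : ℕ) [NeZero N] : GoodN N (mzc (fun _ : α => u) a x) := by
  classical
  have hd : 0 < orderOf u := orderOf_pos _
  have h1 : GoodN N (fun w => ∑ ρ ∈ Finset.range (orderOf u),
      if u ^ ρ = x then pc (orderOf u) a ρ w else 0) := by
    refine GoodN_sum _ _ (fun ρ _ => ?_)
    by_cases hx : u ^ ρ = x
    · simp only [if_pos hx]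
      exact pc_good _ hd a ρ N
    · simp only [if_neg hx]
      exact GoodN.const _ 0
  refine h1.congr ?_
  intro w
  have h2 := mzc_const u (orderOf u) hd (fun n => pow_mod_orderOf _ n) a x w 0
  rw [pow_zero] at h2
  exact h2

section walk

variable {Q : Type} [Group Q] (u : Q) (B : α → Bool)

/-- Erasing the neutral letters does not change the phase counts of a non-neutral letter. -/
theorem mzc_filter (a : α) (ha : B a = true) (x : Q) : ∀ (w : List α) (acc : Q),
    mzcAux (fun c => if B c = true then u else 1) a x acc w
      = mzcAux (fun _ : α => u) a x acc (w.filter B) := by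
  classical
  intro w
  induction w with
  | nil => intro acc; rfl
  | cons c' w ih =>
    intro acc
    cases hB : B c'
    · have hne : ¬ (c' = a ∧ acc = x) := by
        rintro ⟨rfl, _⟩
        rw [ha] at hB
        exact absurd hB (by simp)
      rw [List.filter_cons_of_neg (by simp [hB]), ← ih acc]
      simp only [mzcAux, hB]
      rw [if_neg hne]
      simp
    · rw [List.filter_cons_of_pos hB]
      simp only [mzcAux, hB]
      rw [ih]
      simp

/-- The phase counts of a neutral letter at a phase `u ^ ρ`. -/
theorem mzc_neutral [DecidableEq α] [Finite Q] (a : α) (ha : B a = false) (ρ : ℕ)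
    [NeZero (orderOf u)] : ∀ (w : List α) (n : ℕ),
    mzcAux (fun c => if B c = true then u else 1) a (u ^ ρ) (u ^ n) w
      = ncnt (orderOf u) B a ((ρ : ℕ) : ZMod (orderOf u)) ((n : ℕ) : ZMod (orderOf u)) w := by
  classical
  intro w
  induction w with
  | nil => intro n; rfl
  | cons c' w ih =>
    intro n
    have hiff : (u ^ n = u ^ ρ) ↔ (((n : ℕ) : ZMod (orderOf u)) = ((ρ : ℕ) : ZMod (orderOf u))) := by
      rw [pow_eq_pow_iff_modEq, ZMod.natCast_eq_natCast_iff]
    have hind : (if c' = a ∧ u ^ n = u ^ ρ then 1 else 0)
        = (if B c' = false ∧ c' = a ∧ ((n : ℕ) : ZMod (orderOf u)) = ((ρ : ℕ) : ZMod (orderOf u))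
            then 1 else 0) := by
      by_cases h1 : c' = a ∧ u ^ n = u ^ ρ
      · have h2 : B c' = false ∧ c' = a ∧
            ((n : ℕ) : ZMod (orderOf u)) = ((ρ : ℕ) : ZMod (orderOf u)) :=
          ⟨by rw [h1.1]; exact ha, h1.1, hiff.1 h1.2⟩
        rw [if_pos h1, if_pos h2]
      · have h2 : ¬ (B c' = false ∧ c' = a ∧
            ((n : ℕ) : ZMod (orderOf u)) = ((ρ : ℕ) : ZMod (orderOf u))) :=
          fun h => h1 ⟨h.2.1, hiff.2 h.2.2⟩
        rw [if_neg h1, if_neg h2]
    cases hB : B c'
    · have e1 : mzcAux (fun c => if B c = true then u else 1) a (u ^ ρ) (u ^ n) (c' :: w)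
          = (if c' = a ∧ u ^ n = u ^ ρ then 1 else 0)
            + mzcAux (fun c => if B c = true then u else 1) a (u ^ ρ) (u ^ n) w := by
        simp only [mzcAux, hB]
        congr 1
        · by_cases h : c' = a ∧ u ^ n = u ^ ρ
          · rw [if_pos h, if_pos h]
          · rw [if_neg h, if_neg h]
        · simp
      rw [e1, ih n, hind]
      simp only [ncnt, cstep, hB]
      simp
    · have e1 : mzcAux (fun c => if B c = true then u else 1) a (u ^ ρ) (u ^ n) (c' :: w)
          = (if c' = a ∧ u ^ n = u ^ ρ then 1 else 0)
            + mzcAux (fun c => if B c = true then u else 1) a (u ^ ρ) (u ^ (n + 1)) w := by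
        simp only [mzcAux, hB]
        congr 1
        · by_cases h : c' = a ∧ u ^ n = u ^ ρ
          · rw [if_pos h, if_pos h]
          · rw [if_neg h, if_neg h]
        · simp [pow_succ]
      rw [e1, ih (n + 1), hind]
      simp only [ncnt, cstep, hB]
      simp

/-- A neutral letter is never read at a phase outside the powers of `u`. -/
theorem mzc_neutral_zero (a : α) (x : Q) (hx : ∀ ρ : ℕ, u ^ ρ ≠ x) : ∀ (w : List α) (n : ℕ),
    mzcAux (fun c => if B c = true then u else 1) a x (u ^ n) w = 0 := by
  classical
  intro w
  induction w with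
  | nil => intro n; rfl
  | cons c' w ih =>
    intro n
    have hne : ¬ (c' = a ∧ u ^ n = x) := fun h => hx n h.2
    cases hB : B c'
    · simp only [mzcAux, hB]
      rw [if_neg hne]
      simpa using ih n
    · simp only [mzcAux, hB]
      rw [if_neg hne]
      have := ih (n + 1)
      rw [pow_succ] at this
      simpa using this

end walk

/-- **Letters in `A ∪ g A`.**  Let `A` be an abelian normal subgroup of a finite group `G` and let
every letter be sent into `A` or into the coset `g A`.  Then every language recognized through
this morphism has generalized star height at most one. -/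
theorem neutral_coset {G : Type} [Group G] [Finite G] (A : Subgroup G) [A.Normal]
    (hA : ∀ a ∈ A, ∀ b ∈ A, a * b = b * a) {α : Type} [Fintype α] (φ : α → G) (g : G)
    (hφ : ∀ c, φ c ∈ A ∨ g⁻¹ * φ c ∈ A) (T : Set G) :
    HLE 1 ({w | (w.map φ).prod ∈ T} : Language α) := by
  classical
  let B : α → Bool := fun c => decide (φ c ∉ A)
  have hwt : (fun c => (φ c : G ⧸ A)) = fun c => if B c = true then (g : G ⧸ A) else 1 := by
    funext c
    by_cases hc : φ c ∈ A
    · have hB : B c = false := by simp [B, hc]
      rw [hB]
      simp only [Bool.false_eq_true, if_false]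
      exact (QuotientGroup.eq_one_iff _).2 hc
    · have hB : B c = true := by simp [B, hc]
      rw [hB, if_pos rfl]
      rcases hφ c with h | h
      · exact absurd h hc
      · exact (QuotientGroup.eq.2 h).symm
  have hcard : 0 < Nat.card G := Nat.card_pos
  have : NeZero (Nat.card G) := ⟨hcard.ne'⟩
  have hd : 0 < orderOf (g : G ⧸ A) := orderOf_pos _
  have : NeZero (orderOf (g : G ⧸ A)) := ⟨hd.ne'⟩
  refine abelian_kernel_of_zone A hA φ ?_ ?_ T
  · intro a x
    rw [hwt]
    cases ha : B a
    · by_cases hx : ∃ ρ : ℕ, (g : G ⧸ A) ^ ρ = x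
      · obtain ⟨ρ, rfl⟩ := hx
        have h1 := ncnt_good (orderOf (g : G ⧸ A)) B a ((ρ : ℕ) : ZMod (orderOf (g : G ⧸ A)))
          (Nat.card G) ((0 : ℕ) : ZMod (orderOf (g : G ⧸ A)))
        refine h1.congr ?_
        intro w
        have h2 := mzc_neutral (g : G ⧸ A) B a ha ρ w 0
        rw [pow_zero] at h2
        exact h2
      · push_neg at hx
        refine (GoodN.const (Nat.card G) 0).congr ?_
        intro w
        have h2 := mzc_neutral_zero (g : G ⧸ A) B a x hx w 0
        rw [pow_zero] at h2
        exact h2
    · have h1 : GoodN (Nat.card G) (mzc (fun _ : α => (g : G ⧸ A)) a x) :=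
        mzc_const_good _ a x _
      have h2 := Good.filter h1 B
      refine GoodN.congr h2 ?_
      intro w
      exact mzc_filter (g : G ⧸ A) B a ha x w 1
  · have hprod : ∀ w : List α,
        (((w.map φ).prod : G) : G ⧸ A) = (g : G ⧸ A) ^ (w.filter B).length := by
      intro w
      induction w with
      | nil => simp
      | cons c w ih =>
        rw [List.map_cons, List.prod_cons, QuotientGroup.mk_mul, ih]
        have e : (φ c : G ⧸ A) = if B c = true then (g : G ⧸ A) else 1 := congrFun hwt c
        rw [e]
        cases hB : B c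
        · rw [List.filter_cons_of_neg (by simp [hB])]
          simp
        · rw [List.filter_cons_of_pos hB, List.length_cons, pow_succ']
          simp
    have hl : GoodN (Nat.card G) (List.length : List α → ℕ) := length_good _
    have hl' := Good.filter hl B
    refine Good.of_det hl' _ ?_
    intro w w' hw
    rw [hprod, hprod]
    have hq : ((g : G ⧸ A)) ^ Nat.card G = 1 := by
      rw [← QuotientGroup.mk_pow, pow_card_eq_one']
      rfl
    exact ak_pow_eq_of_natCast_eq _ (Nat.card G) hq hw

end Vale.Agent.Lib.P329.helper10
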