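import Vale.Agent.Lib.P329.helper24.Good

/-!
# P329 (helper10): peeling off invariant components

Let `x w : R → ℤ` be an unknown function on an abelian group `R`, depending on a word `w`, of
the form `x = P + ∑ i, c i • g i` where `P` is known (good modulo every `M`), the coefficients
`c i w` are arbitrary and every `g i` is invariant under the translations by one of finitely
many finite sets `H`.  If all the sums `∑ h ∈ H, x (ρ + h)` are known, then `x` is known.
-/

namespace Vale.Agent.Lib.P329.helper10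

open Vale.Agent.Lib.P329 Vale.Agent.Lib.P329.helper24

variable {α : Type} {R : Type} [AddCommGroup R]

/-- Every value of the family is a good function modulo every `M`. -/
def Known (f : List α → R → ℤ) : Prop :=
  ∀ (M : ℕ) [NeZero M] (ρ : R), Good (fun w => ((f w ρ : ℤ) : ZMod M))

/-- The sum over the translates by `H`. -/
def Av (H : Finset R) (f : List α → R → ℤ) : List α → R → ℤ :=
  fun w ρ => ∑ h ∈ H, f w (ρ + h)

/-- Invariance under the translations by the elements of `H`. -/
def Inv (H : Finset R) (g : R → ℤ) : Prop := ∀ h ∈ H, ∀ ρ, g (ρ + h) = g ρ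

/-- The sum of the differences with the translates by `H`. -/
def Df (H : Finset R) (f : List α → R → ℤ) : List α → R → ℤ :=
  fun w ρ => ∑ h ∈ H, (f w ρ - f w (ρ + h))

theorem Known.df {f : List α → R → ℤ} (hf : Known f) (H : Finset R) : Known (Df H f) := by
  intro M _ ρ
  have e : (fun w => ((Df H f w ρ : ℤ) : ZMod M))
      = fun w => ∑ h ∈ H, (((f w ρ : ℤ) : ZMod M) - ((f w (ρ + h) : ℤ) : ZMod M)) := by
    funext w
    unfold Df
    push_cast
    rfl
  rw [e]
  exact Good.sum H _ (fun h _ => (hf M ρ).sub (hf M (ρ + h)))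

theorem good_div {f : List α → ℤ} (n : ℕ) (hn : 0 < n) (M : ℕ)
    (h : Good (fun w => ((((n : ℤ) * f w : ℤ)) : ZMod (n * M)))) :
    Good (fun w => ((f w : ℤ) : ZMod M)) := by
  refine h.of_det _ ?_
  intro w w' e
  rw [ZMod.intCast_eq_intCast_iff_dvd_sub] at e ⊢
  have h1 : ((n : ℤ) * (M : ℤ)) ∣ (n : ℤ) * (f w' - f w) := by
    rw [mul_sub]
    push_cast at e
    exact e
  exact (mul_dvd_mul_iff_left (by exact_mod_cast hn.ne')).1 h1

theorem peel {ι : Type} [Fintype ι] (Hs : List (Finset R)) (hne : ∀ H ∈ Hs, H.Nonempty) :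
    ∀ (x P : List α → R → ℤ) (c : ι → List α → ℤ) (g : ι → R → ℤ),
      (∀ i, (∀ ρ, g i ρ = 0) ∨ ∃ H ∈ Hs, Inv H (g i)) →
      (∀ w ρ, x w ρ = P w ρ + ∑ i, c i w * g i ρ) →
      Known P → (∀ H ∈ Hs, Known (Av H x)) → Known x := by
  induction Hs with
  | nil =>
    intro x P c g hg hx hP _
    have e : x = P := by
      funext w ρ
      rw [hx]
      have e0 : ∑ i, c i w * g i ρ = 0 := Finset.sum_eq_zero (fun i _ => by
        rcases hg i with h | ⟨H, hH, _⟩
        · rw [h ρ, mul_zero]
        · exact absurd hH List.not_mem_nil)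
      rw [e0, add_zero]
    rw [e]
    exact hP
  | cons H Hs ih =>
    intro x P c g hg hx hP hA
    have hne' : ∀ H' ∈ Hs, H'.Nonempty := fun H' h => hne H' (List.mem_cons_of_mem _ h)
    have hg' : ∀ i, (∀ ρ, (∑ h ∈ H, (g i ρ - g i (ρ + h))) = 0) ∨
        ∃ H' ∈ Hs, Inv H' (fun ρ => ∑ h ∈ H, (g i ρ - g i (ρ + h))) := by
      intro i
      rcases hg i with h | ⟨H0, hH0, hinv⟩
      · left
        intro ρ
        simp [h]
      · rcases List.mem_cons.1 hH0 with rfl | hmem
        · left
          intro ρ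
          exact Finset.sum_eq_zero (fun h hh => by rw [hinv h hh ρ, sub_self])
        · right
          refine ⟨H0, hmem, ?_⟩
          intro h0 hh0 ρ
          show ∑ h ∈ H, (g i (ρ + h0) - g i (ρ + h0 + h)) = ∑ h ∈ H, (g i ρ - g i (ρ + h))
          refine Finset.sum_congr rfl (fun h _ => ?_)
          rw [hinv h0 hh0 ρ, add_right_comm, hinv h0 hh0 (ρ + h)]
    have hx' : ∀ w ρ, Df H x w ρ
        = Df H P w ρ + ∑ i, c i w * ∑ h ∈ H, (g i ρ - g i (ρ + h)) := by
      intro w ρ
      unfold Df
      have e1 : (∑ i, c i w * ∑ h ∈ H, (g i ρ - g i (ρ + h)))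
          = ∑ h ∈ H, ∑ i, c i w * (g i ρ - g i (ρ + h)) := by
        rw [Finset.sum_comm]
        exact Finset.sum_congr rfl (fun i _ => Finset.mul_sum _ _ _)
      rw [e1, ← Finset.sum_add_distrib]
      refine Finset.sum_congr rfl (fun h _ => ?_)
      rw [hx w ρ, hx w (ρ + h)]
      simp only [mul_sub, Finset.sum_sub_distrib]
      ring
    have hA' : ∀ H' ∈ Hs, Known (Av H' (Df H x)) := by
      intro H' hH'
      have hK := (hA H' (List.mem_cons_of_mem _ hH')).df H
      have e : Av H' (Df H x) = Df H (Av H' x) := by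
        funext w ρ
        unfold Av Df
        rw [Finset.sum_comm]
        refine Finset.sum_congr rfl (fun h _ => ?_)
        rw [← Finset.sum_sub_distrib]
        refine Finset.sum_congr rfl (fun h' _ => ?_)
        rw [add_right_comm]
      rw [e]
      exact hK
    have key := ih hne' (Df H x) (Df H P) c (fun i ρ => ∑ h ∈ H, (g i ρ - g i (ρ + h)))
      hg' hx' (hP.df H) hA'
    intro M _ ρ
    have hcard : 0 < H.card := Finset.card_pos.2 (hne H List.mem_cons_self)
    have hM : M ≠ 0 := NeZero.ne M
    haveI : NeZero (H.card * M) := ⟨Nat.mul_ne_zero hcard.ne' hM⟩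
    have h1 := key (H.card * M) ρ
    have h2 := hA H List.mem_cons_self (H.card * M) ρ
    apply good_div H.card hcard M
    refine (h1.add h2).of_det _ ?_
    intro w w' e
    have hid : ∀ w, (H.card : ℤ) * x w ρ = Df H x w ρ + Av H x w ρ := by
      intro w
      unfold Df Av
      rw [← Finset.sum_add_distrib]
      simp [Finset.sum_const, nsmul_eq_mul]
    rw [hid w, hid w']
    push_cast
    exact e

end Vale.Agent.Lib.P329.helper10
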