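import Vale.Agent.Lib.P329.helper10.Blocks
import Vale.Agent.Lib.P329.helper10.Peel

/-!
# P329 (helper10): counting the occurrences of a letter at the positions of a residue class

`pc q a ρ w` is the number of positions `i` of the word `w` with `i % q = ρ` that carry the
letter `a`.  Main result `pc_good`: for every `q ≥ 1` (prime or not) this number, modulo any `M`,
is a good function of `w` (determined by finitely many languages of generalized star height at
most one).

Proof: cut `w` into aligned blocks of length `q`.  The blocks equal to a fixed primitive word are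
counted by `cb_good`.  A block that is not primitive is invariant under the rotation by a proper
divisor `d` of `q`, and the sums of the unknown counts over the classes modulo `d` are the counts
`pc d`, known by induction; `peel` then recovers the counts themselves.
-/

namespace Vale.Agent.Lib.P329.helper10

open Vale.Agent.Lib.P329 Vale.Agent.Lib.P329.helper24

variable {α : Type} [DecidableEq α]

/-- `pcA q a ρ acc w`: the number of positions `i` of `w` carrying the letter `a` such that
`(acc + i) % q = ρ`. -/
def pcA (q : ℕ) (a : α) (ρ : ℕ) : ℕ → List α → ℕ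
  | _, [] => 0
  | acc, c :: w => (if c = a ∧ acc % q = ρ then 1 else 0) + pcA q a ρ (acc + 1) w

/-- `pc q a ρ w`: the number of positions `i` of `w` with `i % q = ρ` carrying the letter `a`. -/
def pc (q : ℕ) (a : α) (ρ : ℕ) (w : List α) : ℕ := pcA q a ρ 0 w

theorem pcA_append (q : ℕ) (a : α) (ρ : ℕ) : ∀ (u : List α) (acc : ℕ) (v : List α),
    pcA q a ρ acc (u ++ v) = pcA q a ρ acc u + pcA q a ρ (acc + u.length) v := by
  intro u
  induction u with
  | nil => intro acc v; simp [pcA]
  | cons c u ih =>
    intro acc v
    simp only [List.cons_append, pcA, ih, List.length_cons]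
    rw [show acc + 1 + u.length = acc + (u.length + 1) from by omega]
    omega

theorem pcA_shift (q : ℕ) (a : α) (ρ : ℕ) : ∀ (w : List α) (acc : ℕ),
    pcA q a ρ (acc + q) w = pcA q a ρ acc w := by
  intro w
  induction w with
  | nil => intro acc; rfl
  | cons c w ih =>
    intro acc
    simp only [pcA, Nat.add_mod_right]
    rw [show acc + q + 1 = acc + 1 + q from by omega, ih]

theorem pc_block_append (q : ℕ) (a : α) (ρ : ℕ) (b w : List α) (hb : b.length = q) :
    pc q a ρ (b ++ w) = pc q a ρ b + pc q a ρ w := by
  unfold pc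
  rw [pcA_append, hb]
  have h := pcA_shift q a ρ w 0
  rw [h]

theorem pc_chunks {q : ℕ} (hq : 0 < q) (a : α) (ρ : ℕ) (w : List α) :
    pc q a ρ w = ((chunks q w).map (pc q a ρ)).sum + pc q a ρ (tl q w) := by
  revert w
  refine block_induction hq _ ?_ ?_
  · intro w hw
    rw [chunks_short w hw, tl_short w hw]
    simp
  · intro b w hb ih
    rw [chunks_append hq b w hb, tl_append hq b w hb, pc_block_append q a ρ b w hb,
      List.map_cons, List.sum_cons, ih]
    omega

theorem chunks_length {q : ℕ} (hq : 0 < q) (w : List α) : ∀ b ∈ chunks q w, b.length = q := by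
  revert w
  refine block_induction hq _ ?_ ?_
  · intro w hw b hb
    rw [chunks_short w hw] at hb
    exact absurd hb List.not_mem_nil
  · intro b w hb ih b' hb'
    rw [chunks_append hq b w hb] at hb'
    rcases List.mem_cons.1 hb' with rfl | h
    · exact hb
    · exact ih b' h

theorem pc_of_ge (q : ℕ) (hq : 0 < q) (a : α) (ρ : ℕ) (hρ : q ≤ ρ) : ∀ (w : List α) (acc : ℕ),
    pcA q a ρ acc w = 0 := by
  intro w
  induction w with
  | nil => intro acc; rfl
  | cons c w ih =>
    intro acc
    have h : ¬ (c = a ∧ acc % q = ρ) := by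
      rintro ⟨_, h2⟩
      have := Nat.mod_lt acc hq
      omega
    simp only [pcA, if_neg h, ih, add_zero]

/-- On a word of length at most `q` the count reads off one letter. -/
theorem pcA_short (q : ℕ) (a : α) (ρ : ℕ) : ∀ (t : List α) (acc : ℕ), acc + t.length ≤ q →
    ρ < q → pcA q a ρ acc t = if t[ρ - acc]? = some a ∧ acc ≤ ρ then 1 else 0 := by
  intro t
  induction t with
  | nil =>
    intro acc _ _
    simp [pcA]
  | cons c t ih =>
    intro acc hlen hρ
    rw [List.length_cons] at hlen
    have hacc : acc % q = acc := Nat.mod_eq_of_lt (by omega)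
    simp only [pcA, hacc]
    rw [ih (acc + 1) (by omega) hρ]
    rcases Nat.lt_trichotomy ρ acc with h | h | h
    · have h1 : ¬ (c = a ∧ acc = ρ) := by rintro ⟨_, h2⟩; omega
      have h2 : ¬ (t[ρ - (acc + 1)]? = some a ∧ acc + 1 ≤ ρ) := by rintro ⟨_, h2⟩; omega
      have h3 : ¬ ((c :: t)[ρ - acc]? = some a ∧ acc ≤ ρ) := by rintro ⟨_, h2⟩; omega
      rw [if_neg h1, if_neg h2, if_neg h3]
    · subst h
      have h2 : ¬ (t[ρ - (ρ + 1)]? = some a ∧ ρ + 1 ≤ ρ) := by rintro ⟨_, h2⟩; omega
      rw [if_neg h2, Nat.sub_self]
      by_cases hc : c = a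
      · subst hc
        simp
      · have h1 : ¬ (c = a ∧ ρ = ρ) := fun h => hc h.1
        have h3 : ¬ ((c :: t)[0]? = some a ∧ ρ ≤ ρ) := by
          rintro ⟨h3, _⟩
          simp at h3
          exact hc h3
        rw [if_neg h1, if_neg h3]
    · have h1 : ¬ (c = a ∧ acc = ρ) := by rintro ⟨_, h2⟩; omega
      rw [if_neg h1, zero_add]
      have e : ρ - acc = (ρ - (acc + 1)) + 1 := by omega
      rw [e, List.getElem?_cons_succ]
      have e2 : (acc + 1 ≤ ρ) ↔ (acc ≤ ρ) := by omega
      simp only [e2]

theorem pc_block (q : ℕ) (a : α) (ρ : ℕ) (β : List α) (hβ : β.length = q) (hρ : ρ < q) :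
    pc q a ρ β = if β[ρ]? = some a then 1 else 0 := by
  unfold pc
  rw [pcA_short q a ρ β 0 (by omega) hρ]
  simp

/-- A word that is not primitive is invariant under the rotation by a proper divisor of its
length. -/
theorem exists_dvd_rotate {β : List α} (h : ¬ Prim β) :
    ∃ d : ℕ, 0 < d ∧ d < β.length ∧ d ∣ β.length ∧ β.rotate d = β := by
  unfold Prim at h
  push_neg at h
  obtain ⟨r, hr0, hr1, hrot⟩ := h
  have hd1 : Nat.gcd r β.length ≤ r := Nat.gcd_le_left _ hr0
  refine ⟨Nat.gcd r β.length, Nat.gcd_pos_of_pos_left _ hr0, by omega, Nat.gcd_dvd_right _ _, ?_⟩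
  obtain ⟨m, _, hm⟩ := Nat.exists_mul_mod_eq_gcd (k := β.length) (n := r) (by omega)
  have hmul : ∀ j : ℕ, β.rotate (r * j) = β := by
    intro j
    induction j with
    | zero => simp
    | succ j ih => rw [Nat.mul_succ, ← List.rotate_rotate, ih, hrot]
  rw [← hm, List.rotate_mod, hmul]

theorem getElem?_of_rotate {β : List α} {d : ℕ} (hrot : β.rotate d = β) :
    ∀ (n i : ℕ), i < β.length → β[(i + n * d) % β.length]? = β[i]? := by
  intro n
  induction n with
  | zero =>
    intro i hi
    rw [Nat.zero_mul, Nat.add_zero, Nat.mod_eq_of_lt hi]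
  | succ n ih =>
    intro i hi
    have hpos : 0 < β.length := by omega
    have h1 : (i + n * d) % β.length < β.length := Nat.mod_lt _ hpos
    have h2 := List.getElem?_rotate (l := β) (n := d) h1
    rw [hrot] at h2
    rw [← ih i hi, h2]
    congr 1
    rw [Nat.succ_mul, ← Nat.add_assoc, Nat.mod_add_mod]

/-- The residues that are multiples of `d`. -/
def Hd (q d : ℕ) [NeZero q] : Finset (ZMod q) := Finset.univ.filter (fun h : ZMod q => d ∣ h.val)

theorem zero_mem_Hd (q d : ℕ) [NeZero q] : (0 : ZMod q) ∈ Hd q d := by
  unfold Hd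
  rw [Finset.mem_filter]
  exact ⟨Finset.mem_univ _, by rw [ZMod.val_zero]; exact dvd_zero d⟩

/-- The count on a block that is invariant under the rotation by `d` is invariant under the
translations by the multiples of `d`. -/
theorem pc_block_inv (q : ℕ) [NeZero q] (a : α) (β : List α) (hβ : β.length = q) (d : ℕ)
    (hrot : β.rotate d = β) (h : ZMod q) (hh : h ∈ Hd q d) (ρ : ZMod q) :
    pc q a (ρ + h).val β = pc q a ρ.val β := by
  have hh' : d ∣ h.val := (Finset.mem_filter.1 hh).2
  obtain ⟨n, hn⟩ := hh'
  rw [pc_block q a _ β hβ (ZMod.val_lt _), pc_block q a _ β hβ (ZMod.val_lt _)]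
  have e : β[(ρ + h).val]? = β[ρ.val]? := by
    have h1 := getElem?_of_rotate hrot n ρ.val (by rw [hβ]; exact ZMod.val_lt _)
    rw [hβ] at h1
    rw [ZMod.val_add, hn, Nat.mul_comm d n]
    exact h1
  rw [e]

theorem Hd_indicator (q d : ℕ) [NeZero q] (hd : d ∣ q) (n : ℕ) (ρ : ZMod q) (P : Prop)
    [Decidable P] :
    (∑ h ∈ Hd q d, (if P ∧ n % q = (ρ + h).val then 1 else 0) : ℕ)
      = if P ∧ n % d = ρ.val % d then 1 else 0 := by
  have key : ∀ h : ZMod q, (n % q = (ρ + h).val) ↔ ((n : ZMod q) - ρ = h) := by
    intro h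
    constructor
    · intro e
      have e2 : (n : ZMod q) = ρ + h := by
        apply ZMod.val_injective q
        rw [ZMod.val_natCast]
        exact e
      rw [e2]
      ring
    · intro e
      rw [← e, ← ZMod.val_natCast]
      congr 1
      ring
  have mem : ((n : ZMod q) - ρ) ∈ Hd q d ↔ n % d = ρ.val % d := by
    unfold Hd
    rw [Finset.mem_filter]
    simp only [Finset.mem_univ, true_and]
    rw [← ZMod.natCast_eq_zero_iff, ZMod.natCast_val, ← ZMod.castHom_apply (h := hd), map_sub,
      map_natCast, sub_eq_zero, ZMod.castHom_apply, ← ZMod.natCast_val,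
      ZMod.natCast_eq_natCast_iff']
  by_cases hP : P
  · simp only [hP, true_and, key]
    rw [Finset.sum_ite_eq]
    exact if_congr mem rfl rfl
  · simp [hP]

/-- The sum of the counts over the classes `ρ + h`, `h` a multiple of `d`, is the count modulo
`d`. -/
theorem pcA_Hd (q d : ℕ) [NeZero q] (hd : d ∣ q) (a : α) (ρ : ZMod q) : ∀ (w : List α) (acc : ℕ),
    ∑ h ∈ Hd q d, pcA q a (ρ + h).val acc w = pcA d a (ρ.val % d) acc w := by
  intro w
  induction w with
  | nil =>
    intro acc
    simp [pcA]
  | cons c w ih =>
    intro acc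
    simp only [pcA]
    rw [Finset.sum_add_distrib, ih, Hd_indicator q d hd acc ρ (c = a)]

theorem sum_vector_count [Fintype α] {q : ℕ} (f : List α → ℤ) : ∀ (l : List (List α)),
    (∀ b ∈ l, b.length = q) →
    ((l.map f).sum : ℤ) = ∑ β : List.Vector α q, ((l.count β.val : ℕ) : ℤ) * f β.val := by
  classical
  intro l
  induction l with
  | nil =>
    intro _
    simp
  | cons b l ih =>
    intro hl
    have hb : b.length = q := hl b List.mem_cons_self
    rw [List.map_cons, List.sum_cons, ih (fun b' hb' => hl b' (List.mem_cons_of_mem _ hb'))]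
    let β0 : List.Vector α q := ⟨b, hb⟩
    have e : ∀ β : List.Vector α q, ((List.count β.val (b :: l) : ℕ) : ℤ) * f β.val
        = (if β = β0 then f b else 0) + ((l.count β.val : ℕ) : ℤ) * f β.val := by
      intro β
      by_cases hβ : β = β0
      · have hv : β.val = b := by rw [hβ]
        rw [if_pos hβ, hv, List.count_cons_self]
        push_cast
        ring
      · have hne : ¬ (b = β.val) := fun h => hβ (Subtype.ext h.symm)
        rw [if_neg hβ, zero_add, List.count_cons]
        simp [hne]
    have e2 : (∑ x : List.Vector α q, if x = β0 then f b else 0) = f b := by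
      rw [Finset.sum_eq_single β0]
      · rw [if_pos rfl]
      · intro x _ hx
        rw [if_neg hx]
      · intro h
        exact absurd (Finset.mem_univ _) h
    rw [Finset.sum_congr rfl (fun β _ => e β), Finset.sum_add_distrib, e2]

/-- **Positional counting.**  For every `q ≥ 1`, the number of positions of a word in a given
residue class modulo `q` that carry a given letter is, modulo any `M`, a good function of the
word. -/
theorem pc_good [Fintype α] : ∀ (q : ℕ), 0 < q → ∀ (a : α) (ρ : ℕ) (M : ℕ) [NeZero M],
    GoodN M (pc q a ρ) := by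
  classical
  intro q
  induction q using Nat.strong_induction_on with
  | _ q ih =>
    intro hq a ρ M _
    by_cases hρ : ρ < q
    swap
    · exact GoodN.congr (GoodN.const M 0) (fun w => pc_of_ge q hq a ρ (by omega) w 0)
    haveI : NeZero q := ⟨hq.ne'⟩
    let x : List α → ZMod q → ℤ := fun w r => ((pc q a r.val w : ℕ) : ℤ)
    let Hs : List (Finset (ZMod q)) :=
      ((List.range q).filter (fun d => 0 < d ∧ d ∣ q)).map (fun d => Hd q d)
    let P : List α → ZMod q → ℤ := fun w r =>
      (∑ β : List.Vector α q, if Prim β.val then ((cb β.val w : ℕ) : ℤ)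
        * ((pc q a r.val β.val : ℕ) : ℤ) else 0) + ((pc q a r.val (tl q w) : ℕ) : ℤ)
    let c : List.Vector α q → List α → ℤ := fun β w => ((cb β.val w : ℕ) : ℤ)
    let g : List.Vector α q → ZMod q → ℤ := fun β r =>
      if Prim β.val then 0 else ((pc q a r.val β.val : ℕ) : ℤ)
    have hne : ∀ H ∈ Hs, H.Nonempty := by
      intro H hH
      obtain ⟨d, _, rfl⟩ := List.mem_map.1 hH
      exact ⟨0, zero_mem_Hd q d⟩
    have hg : ∀ β, (∀ r, g β r = 0) ∨ ∃ H ∈ Hs, Inv H (g β) := by
      intro β
      by_cases hβ : Prim β.val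
      · left
        intro r
        show (if Prim β.val then 0 else ((pc q a r.val β.val : ℕ) : ℤ)) = 0
        rw [if_pos hβ]
      · right
        obtain ⟨d, hd0, hd1, hd2, hrot⟩ := exists_dvd_rotate hβ
        rw [β.2] at hd1 hd2
        refine ⟨Hd q d, List.mem_map.2 ⟨d, List.mem_filter.2 ⟨List.mem_range.2 hd1, by
          simpa using ⟨hd0, hd2⟩⟩, rfl⟩, ?_⟩
        intro h hh r
        show (if Prim β.val then 0 else ((pc q a (r + h).val β.val : ℕ) : ℤ))
          = (if Prim β.val then 0 else ((pc q a r.val β.val : ℕ) : ℤ))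
        rw [if_neg hβ, if_neg hβ, pc_block_inv q a β.val β.2 d hrot h hh r]
    have hx : ∀ w r, x w r = P w r + ∑ β, c β w * g β r := by
      intro w r
      show ((pc q a r.val w : ℕ) : ℤ) = ((∑ β : List.Vector α q, if Prim β.val then
          ((cb β.val w : ℕ) : ℤ) * ((pc q a r.val β.val : ℕ) : ℤ) else 0)
          + ((pc q a r.val (tl q w) : ℕ) : ℤ))
        + ∑ β : List.Vector α q, ((cb β.val w : ℕ) : ℤ)
          * (if Prim β.val then 0 else ((pc q a r.val β.val : ℕ) : ℤ))
      rw [pc_chunks hq a r.val w, Nat.cast_add]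
      have e1 := sum_vector_count (q := q) (fun b => ((pc q a r.val b : ℕ) : ℤ)) (chunks q w)
        (chunks_length hq w)
      have e1' : (((chunks q w).map (pc q a r.val)).sum : ℤ)
          = ((chunks q w).map (fun b => ((pc q a r.val b : ℕ) : ℤ))).sum := by
        rw [Nat.cast_list_sum, List.map_map]
        rfl
      rw [e1', e1, add_right_comm, ← Finset.sum_add_distrib]
      congr 1
      refine Finset.sum_congr rfl (fun β _ => ?_)
      have ecb : cb β.val w = (chunks q w).count β.val := by
        unfold cb
        rw [β.2]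
      rw [ecb]
      by_cases hβ : Prim β.val
      · rw [if_pos hβ, if_pos hβ, mul_zero, add_zero]
      · rw [if_neg hβ, if_neg hβ, zero_add]
    have hP : Known P := by
      intro M' _ r
      have e : (fun w => ((P w r : ℤ) : ZMod M'))
          = fun w => (∑ β : List.Vector α q, if Prim β.val then
              (((cb β.val w : ℕ) : ZMod M')) * (((pc q a r.val β.val : ℕ)) : ZMod M') else 0)
            + (((pc q a r.val (tl q w) : ℕ)) : ZMod M') := by
        funext w
        show (((((∑ β : List.Vector α q, if Prim β.val then ((cb β.val w : ℕ) : ℤ)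
          * ((pc q a r.val β.val : ℕ) : ℤ) else 0) + ((pc q a r.val (tl q w) : ℕ) : ℤ)) : ℤ))
          : ZMod M') = _
        push_cast
        rfl
      rw [e]
      refine Good.add (Good.sum Finset.univ _ (fun β _ => ?_)) ?_
      · by_cases hβ : Prim β.val
        · have hne' : β.val ≠ [] := by
            intro h0
            have := β.2
            rw [h0] at this
            simp at this
            omega
          have h1 : GoodN M' (cb β.val) := cb_good hβ hne' M'
          have h2 := Good.comp h1 (fun z : ZMod M' => z * (((pc q a r.val β.val : ℕ)) : ZMod M'))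
          refine h2.of_det _ ?_
          intro w w' hw
          rw [if_pos hβ, if_pos hβ]
          exact hw
        · refine (Good.const (α := α) (0 : ZMod M')).of_det _ ?_
          intro w w' _
          rw [if_neg hβ, if_neg hβ]
      · exact (nblk_tl_good hq M').comp (fun p => (((pc q a r.val p.2 : ℕ)) : ZMod M'))
    have hA : ∀ H ∈ Hs, Known (Av H x) := by
      intro H hH
      obtain ⟨d, hd, rfl⟩ := List.mem_map.1 hH
      have hd' := List.mem_filter.1 hd
      have hd1 : d < q := List.mem_range.1 hd'.1
      have hd2 : 0 < d ∧ d ∣ q := by simpa using hd'.2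
      intro M' _ r
      have e : (fun w => ((Av (Hd q d) x w r : ℤ) : ZMod M'))
          = fun w => (((pc d a (r.val % d) w : ℕ)) : ZMod M') := by
        funext w
        show (((∑ h ∈ Hd q d, ((pc q a (r + h).val w : ℕ) : ℤ)) : ℤ) : ZMod M') = _
        rw [← Nat.cast_sum]
        have := pcA_Hd q d hd2.2 a r w 0
        unfold pc
        rw [this]
        push_cast
        rfl
      rw [e]
      exact ih d hd1 hd2.1 a (r.val % d) M'
    have hK : Known x := peel Hs hne x P c g hg hx hP hA
    have h3 := hK M (ρ : ZMod q)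
    refine h3.of_det _ ?_
    intro w w' hw
    have e : ∀ v : List α, (((x v (ρ : ZMod q)) : ℤ) : ZMod M) = ((pc q a ρ v : ℕ) : ZMod M) := by
      intro v
      show ((((pc q a (ρ : ZMod q).val v : ℕ) : ℤ)) : ZMod M) = _
      rw [ZMod.val_cast_of_lt hρ]
      push_cast
      rfl
    rw [← e w, ← e w']
    exact hw

end Vale.Agent.Lib.P329.helper10
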