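import Vale.Agent.Lib.P329.helper10.Code

/-!
# P329 (helper10): primitive words

A word `β` is primitive if it differs from all its nontrivial rotations.  For a primitive word
the set of its powers is star-free: a nonempty word is a power of `β` if and only if it begins
with `β` and every occurrence of `β` in it is either final or followed by `β`.
-/

namespace Vale.Agent.Lib.P329.helper10

open Vale.Agent.Lib.P329 Vale.Agent.Lib.P329.helper24

variable {α : Type}

/-- `pw β k`: the word `β` repeated `k` times. -/
def pw (β : List α) : ℕ → List α
  | 0 => []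
  | k + 1 => β ++ pw β k

/-- A word is primitive if it differs from all its nontrivial rotations. -/
def Prim (β : List α) : Prop := ∀ r : ℕ, 0 < r → r < β.length → β.rotate r ≠ β

/-- The powers of `β`. -/
def Bstar (β : List α) : Language α := {w | ∃ k : ℕ, w = pw β k}

theorem pw_aligned {β : List α} (hβ : Prim β) :
    ∀ (k : ℕ) (x y : List α), pw β k = x ++ (β ++ y) → y = [] ∨ ∃ v, y = β ++ v := by
  intro k
  induction k with
  | zero =>
    intro x y h
    left
    have h' : x ++ (β ++ y) = [] := h.symm
    rw [List.append_eq_nil_iff, List.append_eq_nil_iff] at h'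
    exact h'.2.2
  | succ k ih =>
    intro x y h
    have h0 : β ++ pw β k = x ++ (β ++ y) := h
    rcases List.append_eq_append_iff.1 h0 with ⟨a', hx, hp⟩ | ⟨c', hb, hp⟩
    · exact ih a' y hp
    · -- `β = x ++ c'` and `β ++ y = c' ++ pw β k`
      by_cases hc0 : c' = []
      · subst hc0
        exact ih [] y (by simpa using hp.symm)
      by_cases hx : x = []
      · subst hx
        have hc : c' = β := by simpa using hb.symm
        rw [hc] at hp
        have hy : y = pw β k := List.append_cancel_left hp
        cases k with
        | zero => left; exact hy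
        | succ k => right; exact ⟨pw β k, hy⟩
      · exfalso
        have hxpos : 0 < x.length := List.length_pos_iff.2 hx
        have hcpos : 0 < c'.length := List.length_pos_iff.2 hc0
        have hlb := congrArg List.length hb
        rw [List.length_append] at hlb
        rcases List.append_eq_append_iff.1 hp with ⟨a'', hc, _⟩ | ⟨c'', hb2, hp2⟩
        · -- `c' = β ++ a''` is impossible since `x` is nonempty
          have h2 := congrArg List.length hc
          rw [List.length_append] at h2
          omega
        · -- `β = c' ++ c''` and `pw β k = c'' ++ y`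
          have hlen : x.length = c''.length := by
            have h2 := congrArg List.length hb2
            rw [List.length_append] at h2
            omega
          have hxc : x = c'' := by
            cases k with
            | zero =>
              have h3 : c'' ++ y = [] := hp2.symm
              rw [List.append_eq_nil_iff] at h3
              have : x.length = 0 := by rw [hlen, h3.1]; rfl
              omega
            | succ k =>
              have h3 : β ++ pw β k = c'' ++ y := hp2
              rw [hb, List.append_assoc] at h3
              exact (List.append_inj h3 hlen).1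
          rw [← hxc] at hb2
          have hrot : β.rotate x.length = β := by
            have e1 : β.rotate x.length = (x ++ c').rotate x.length := by rw [← hb]
            rw [e1, List.rotate_append_length_eq]
            exact hb2.symm
          exact hβ x.length hxpos (by omega) hrot

theorem Bstar_of {β : List α} (hne : β ≠ []) :
    ∀ (m : ℕ) (w : List α), w.length ≤ m → (∃ v, w = β ++ v) →
      (∀ x y, w = x ++ (β ++ y) → y = [] ∨ ∃ v, y = β ++ v) → ∃ k : ℕ, w = pw β k := by
  have hpos : 0 < β.length := List.length_pos_iff.2 hne
  intro m
  induction m with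
  | zero =>
    rintro w hw ⟨v, rfl⟩ _
    rw [List.length_append] at hw
    omega
  | succ m ih =>
    rintro w hw ⟨v, rfl⟩ hc
    rcases hc [] v rfl with hv | ⟨v', hv'⟩
    · subst hv
      exact ⟨1, rfl⟩
    · have hlen : v.length ≤ m := by
        rw [List.length_append] at hw
        omega
      obtain ⟨k, hk⟩ := ih v hlen ⟨v', hv'⟩ (fun x y hxy => hc (β ++ x) y (by
        rw [hxy, List.append_assoc]))
      exact ⟨k + 1, by rw [hk]; rfl⟩

theorem Bstar_iff {β : List α} (hβ : Prim β) (hne : β ≠ []) (w : List α) :
    w ∈ Bstar β ↔ (w = [] ∨ ((∃ v, w = β ++ v) ∧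
      ∀ x y, w = x ++ (β ++ y) → y = [] ∨ ∃ v, y = β ++ v)) := by
  constructor
  · rintro ⟨k, rfl⟩
    cases k with
    | zero => left; rfl
    | succ k =>
      right
      exact ⟨⟨pw β k, rfl⟩, fun x y h => pw_aligned hβ (k + 1) x y h⟩
  · rintro (rfl | ⟨h1, h2⟩)
    · exact ⟨0, rfl⟩
    · exact Bstar_of hne w.length w le_rfl h1 h2

/-- The powers of a primitive word form a star-free language. -/
theorem HLE_Bstar {β : List α} (hβ : Prim β) (hne : β ≠ []) : HLE 0 (Bstar β) := by
  have hY : HLE 0 ({y | ¬ (y = [] ∨ ∃ v, y = β ++ v)} : Language α) :=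
    ((HLE_single 0 ([] : List α)).add (HLE_begins 0 β)).compl.congr (fun y =>
      ⟨fun h hmem => h ((Language.mem_add _ _ _).1 hmem),
        fun h hmem => h ((Language.mem_add _ _ _).2 hmem)⟩)
  have hBad := (((HLE.all (α := α) 0).mul (HLE_single 0 β)).mul hY).compl
  have h1 := (HLE_single 0 ([] : List α)).add ((HLE_begins 0 β).inter hBad)
  refine h1.congr ?_
  intro w
  rw [Bstar_iff hβ hne]
  refine Iff.trans ?_ (Language.mem_add _ _ _).symm
  constructor
  · rintro (h | ⟨h2, h3⟩)
    · exact Or.inl h
    · refine Or.inr ⟨h2, ?_⟩
      intro hbad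
      obtain ⟨u, hu, y, hy, rfl⟩ := Language.mem_mul.1 hbad
      obtain ⟨x, _, b, hb, rfl⟩ := Language.mem_mul.1 hu
      have hb' : b = β := hb
      subst hb'
      exact hy (h3 x y (by rw [List.append_assoc]))
  · rintro (h | ⟨h2, h3⟩)
    · exact Or.inl h
    · refine Or.inr ⟨h2, ?_⟩
      intro x y hxy
      by_contra hy
      apply h3
      rw [hxy, ← List.append_assoc]
      exact Language.mem_mul.2 ⟨x ++ β, Language.mem_mul.2 ⟨x, trivial, β, rfl, rfl⟩, y, hy, rfl⟩

theorem pw_append_mem {β : List α} (j : ℕ) {u : List α} (hu : u ∈ Bstar β) :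
    pw β j ++ u ∈ Bstar β := by
  obtain ⟨k, rfl⟩ := hu
  induction j with
  | zero => exact ⟨k, rfl⟩
  | succ j ih =>
    obtain ⟨k', hk'⟩ := ih
    exact ⟨k' + 1, by
      show β ++ pw β j ++ pw β k = β ++ pw β k'
      rw [List.append_assoc, hk']⟩

end Vale.Agent.Lib.P329.helper10
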